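import Mathlib
import Vale.Agent.Lib.P038.Defs
import Vale.Agent.Lib.P038.Additive

namespace Vale.Agent.Results.P038.A_main

open Vale.Agent.Lib.P038

/-- Let `r` be an oriented graph on a finite nonempty vertex type (the relation `r` is asymmetric,
so no loops and no opposite arcs) in which every vertex is joined by no arc to at most `k` other
vertices. Then some vertex `v` satisfies `|N1 v| ≤ |N2 v| + k * (k - 1)`. -/
theorem result {V : Type*} [Fintype V] [DecidableEq V] [Nonempty V]
    (r : V → V → Prop) [DecidableRel r] (hasym : ∀ a b, r a b → ¬ r b a)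
    (k : ℕ) (hk : ∀ v, (nonNbrs r v).card ≤ k) :
    ∃ v, (N1 r v).card ≤ (N2 r v).card + k * (k - 1) :=
  additive_bound r hasym k hk

end Vale.Agent.Results.P038.A_main
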