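import Mathlib
import Vale.Agent.Lib.P038.Defs
import Vale.Agent.Lib.P038.Crux

namespace Vale.Agent.Results.P038.B_threshold

open Vale.Agent.Lib.P038

/-- Let `r` be an oriented graph on a finite nonempty vertex type whose missing graph (the graph of
pairs of distinct vertices joined by no arc) has no alternating four-cycle: there are no pairs `a b`
and `c d` of the missing graph with `a c` and `b d` joined by arcs. This says exactly that the missing
graph is a threshold graph (equivalently the underlying graph is one). Then some vertex `v` satisfies
`|N1 v| ≤ |N2 v|`. -/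
theorem result {V : Type*} [Fintype V] [DecidableEq V] [Nonempty V]
    (r : V → V → Prop) [DecidableRel r] (hasym : ∀ a b, r a b → ¬ r b a)
    (hthr : ∀ a b c d : V, a ≠ b → ¬ r a b → ¬ r b a → c ≠ d → ¬ r c d → ¬ r d c →
      (r a c ∨ r c a) → (r b d ∨ r d b) → False) :
    ∃ v, (N1 r v).card ≤ (N2 r v).card :=
  threshold_case r hasym hthr

end Vale.Agent.Results.P038.B_threshold
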