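import Mathlib
import Vale.Agent.Lib.P038.Defs
import Vale.Agent.Lib.P038.Crux

namespace Vale.Agent.Results.P038.C_nocrux

open Vale.Agent.Lib.P038

/-- Let `r` be an oriented graph on a finite nonempty vertex type. Suppose its missing graph `M` (the
pairs of distinct vertices joined by no arc) has no configuration of vertices `f g x₁ x₂ y` with
`x₁ ≠ x₂`, with `f g`, `x₁ y`, `x₂ y` edges of `M`, and with `f x₁`, `f x₂`, `g y` joined by arcs.
Then some vertex `v` satisfies `|N1 v| ≤ |N2 v|`. Matchings and threshold graphs have no such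
configuration, so this contains tournaments missing a matching and orientations of threshold graphs. -/
theorem result {V : Type*} [Fintype V] [DecidableEq V] [Nonempty V]
    (r : V → V → Prop) [DecidableRel r] (hasym : ∀ a b, r a b → ¬ r b a)
    (hC : ∀ f g x₁ x₂ y : V, x₁ ≠ x₂ →
      f ≠ g → ¬ r f g → ¬ r g f →
      x₁ ≠ y → ¬ r x₁ y → ¬ r y x₁ →
      x₂ ≠ y → ¬ r x₂ y → ¬ r y x₂ →
      (r f x₁ ∨ r x₁ f) → (r f x₂ ∨ r x₂ f) → (r g y ∨ r y g) → False) :
    ∃ v, (N1 r v).card ≤ (N2 r v).card :=
  no_crux_pattern r hasym hC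

end Vale.Agent.Results.P038.C_nocrux
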