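import Mathlib
import Vale.Agent.Lib.P038.Defs
import Vale.Agent.Lib.P038.Star

namespace Vale.Agent.Results.P038.D_starforest

open Vale.Agent.Lib.P038

/-- Let `r` be an oriented graph on a finite nonempty vertex type whose missing graph (the pairs of
distinct vertices joined by no arc) is a disjoint union of stars: every missing pair `a b` has an
endpoint that lies in no other missing pair. Then some vertex `v` satisfies `|N1 v| ≤ |N2 v|`. -/
theorem result {V : Type*} [Fintype V] [DecidableEq V] [Nonempty V]
    (r : V → V → Prop) [DecidableRel r] (hasym : ∀ a b, r a b → ¬ r b a)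
    (hstar : ∀ a b : V, a ≠ b → ¬ r a b → ¬ r b a →
      (∀ d, d ≠ a → ¬ r a d → ¬ r d a → d = b) ∨ (∀ d, d ≠ b → ¬ r b d → ¬ r d b → d = a)) :
    ∃ v, (N1 r v).card ≤ (N2 r v).card := by
  apply star_forest_case r hasym
  intro a b hab
  rcases hstar a b hab.1 hab.2.1 hab.2.2 with h | h
  · exact Or.inl fun d hd => h d hd.1.symm hd.2.1 hd.2.2
  · exact Or.inr fun d hd => h d hd.1.symm hd.2.1 hd.2.2

end Vale.Agent.Results.P038.D_starforest
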